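import Vale.Agent.Lib.P129.Restriction

/-!
# P129 (separable quotient problem): spaces of bounded continuous functions

Let `Ω` be a normal Hausdorff topological space and `X` the Banach space of bounded continuous
real functions on `Ω` with the supremum norm (for compact `Ω` this is the space of all
continuous functions).  If `Ω` contains an infinite compact second-countable (equivalently,
metrizable) subset, for instance a nontrivial convergent sequence together with its limit, then
`X` has a closed subspace `M` such that `X / M` is separable and infinite-dimensional.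
-/

namespace Vale.Agent.Results.P129.ContinuousFunctions

open Vale.Agent.Lib.P129 BoundedContinuousFunction Filter Topology

theorem result (Ω : Type*) [TopologicalSpace Ω] [T2Space Ω] [NormalSpace Ω] :
    (∀ L : Set Ω, IsCompact L → L.Infinite → SecondCountableTopology L →
      ∃ M : Submodule ℝ (Ω →ᵇ ℝ), IsClosed (M : Set (Ω →ᵇ ℝ)) ∧
        TopologicalSpace.SeparableSpace ((Ω →ᵇ ℝ) ⧸ M) ∧
        ¬ FiniteDimensional ℝ ((Ω →ᵇ ℝ) ⧸ M)) ∧
    (∀ (x : ℕ → Ω) (a : Ω), Function.Injective x → (∀ n, x n ≠ a) → Tendsto x atTop (𝓝 a) →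
      ∃ M : Submodule ℝ (Ω →ᵇ ℝ), IsClosed (M : Set (Ω →ᵇ ℝ)) ∧
        TopologicalSpace.SeparableSpace ((Ω →ᵇ ℝ) ⧸ M) ∧
        ¬ FiniteDimensional ℝ ((Ω →ᵇ ℝ) ⧸ M)) :=
  ⟨fun L hL hinf _ => exists_separable_quotient Ω L hL hinf,
    fun x a hx hxa hlim => exists_separable_quotient_of_sequence Ω x a hx hxa hlim⟩

end Vale.Agent.Results.P129.ContinuousFunctions
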