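import Mathlib

/-!
# P129 (separable quotient problem): the increasing-subspaces criterion

A normed space `X` over `ℝ` or `ℂ` has a separable infinite-dimensional quotient
if and only if it carries a strictly increasing sequence of closed subspaces whose union is dense.
-/

namespace Vale.Agent.Results.P129.IncreasingSubspaces

open Set TopologicalSpace

variable {𝕜 : Type*} [RCLike 𝕜] {X : Type*} [NormedAddCommGroup X] [NormedSpace 𝕜 X]

/-- Hahn-Banach: a continuous functional vanishing on a closed subspace and equal to one at a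
given point outside. -/
lemma exists_functional (p : Submodule 𝕜 X) (hp : IsClosed (p : Set X)) {x : X} (hx : x ∉ p) :
    ∃ f : X →L[𝕜] 𝕜, f x = 1 ∧ ∀ y ∈ p, f y = 0 := by
  have : IsClosed (p : Set X) := hp
  have hne : p.mkQ x ≠ 0 := by
    intro h
    exact hx ((Submodule.Quotient.mk_eq_zero p).1 h)
  obtain ⟨g, -, hg⟩ := exists_dual_vector 𝕜 (p.mkQ x) (norm_ne_zero_iff.2 hne)
  have hnorm : (‖p.mkQ x‖ : 𝕜) ≠ 0 := by
    exact_mod_cast norm_ne_zero_iff.2 hne
  refine ⟨(‖p.mkQ x‖ : 𝕜)⁻¹ • (g.comp p.mkQL), ?_, ?_⟩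
  · simp only [smul_apply, ContinuousLinearMap.comp_apply,
      Submodule.mkQL_apply, smul_eq_mul]
    rw [hg]
    exact inv_mul_cancel₀ hnorm
  · intro y hy
    have h0 : p.mkQ y = 0 := (Submodule.Quotient.mk_eq_zero p).2 hy
    simp only [smul_apply, ContinuousLinearMap.comp_apply,
      Submodule.mkQL_apply, smul_eq_mul]
    rw [h0, map_zero, mul_zero]

/-- From a strictly increasing sequence of closed subspaces with dense union to a separable
infinite-dimensional quotient. -/
lemma quotient_of_chain (F : ℕ → Submodule 𝕜 X) (hcl : ∀ n, IsClosed (F n : Set X))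
    (hF : StrictMono F) (hd : Dense (⋃ n, (F n : Set X))) :
    ∃ M : Submodule 𝕜 X, IsClosed (M : Set X) ∧ SeparableSpace (X ⧸ M) ∧
      ¬ FiniteDimensional 𝕜 (X ⧸ M) := by
  have hx : ∀ n, ∃ x, x ∈ F (n + 1) ∧ x ∉ F n := fun n =>
    SetLike.exists_of_lt (hF (Nat.lt_succ_self n))
  choose x hx1 hx0 using hx
  have hf : ∀ n, ∃ f : X →L[𝕜] 𝕜, f (x n) = 1 ∧ ∀ y ∈ F n, f y = 0 := fun n =>
    exists_functional (F n) (hcl n) (hx0 n)
  choose f hf1 hf0 using hf
  -- `V n` is the common kernel of the functionals with index at least `n`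
  set V : ℕ → Submodule 𝕜 X := fun n => ⨅ k : {k : ℕ // n ≤ k}, LinearMap.ker (f k.1 : X →ₗ[𝕜] 𝕜)
    with hV
  have memV : ∀ n z, z ∈ V n ↔ ∀ k, n ≤ k → f k z = 0 := by
    intro n z
    simp only [hV, Submodule.mem_iInf, LinearMap.mem_ker, Subtype.forall,
      ContinuousLinearMap.coe_coe]
  have FV : ∀ n, F n ≤ V n := by
    intro n z hz
    rw [memV]
    intro k hk
    exact hf0 k z (hF.monotone hk hz)
  have Vmono : Monotone V := by
    intro a b hab z hz
    rw [memV] at hz ⊢
    intro k hk
    exact hz k (le_trans hab hk)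
  have xV : ∀ n, x n ∈ V (n + 1) := fun n => FV (n + 1) (hx1 n)
  have xV' : ∀ n, x n ∉ V n := by
    intro n h
    rw [memV] at h
    have := h n le_rfl
    rw [hf1 n] at this
    exact one_ne_zero this
  have Vclosed : IsClosed (V 0 : Set X) := by
    have : (V 0 : Set X) = ⋂ k : ℕ, {z | f k z = 0} := by
      ext z
      simp only [SetLike.mem_coe, memV, Set.mem_iInter, Set.mem_setOf_eq]
      constructor
      · intro h k
        exact h k (Nat.zero_le k)
      · intro h k _
        exact h k
    rw [this]
    exact isClosed_iInter fun k => isClosed_eq (f k).continuous continuous_const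
  refine ⟨V 0, Vclosed, ?_, ?_⟩
  · -- separability
    have step : ∀ n, V n ≤ Submodule.span 𝕜 (Set.range x) ⊔ V 0 := by
      intro n
      induction n with
      | zero => exact le_sup_right
      | succ n ih =>
        intro z hz
        have hz' : z - f n z • x n ∈ V n := by
          rw [memV] at hz ⊢
          intro k hk
          rcases Nat.eq_or_lt_of_le hk with h | h
          · subst h
            simp [hf1]
          · have h1 : f k z = 0 := hz k h
            have h2 : f k (x n) = 0 := ((memV (n + 1) (x n)).1 (xV n)) k h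
            simp [h1, h2]
        have h3 : f n z • x n ∈ Submodule.span 𝕜 (Set.range x) ⊔ V 0 :=
          Submodule.mem_sup_left (Submodule.smul_mem _ _ (Submodule.subset_span ⟨n, rfl⟩))
        have : z = (z - f n z • x n) + f n z • x n := by abel
        rw [this]
        exact Submodule.add_mem _ (ih hz') h3
    have hdense : Dense ((Submodule.span 𝕜 (Set.range x) ⊔ V 0 : Submodule 𝕜 X) : Set X) := by
      refine hd.mono ?_
      intro z hz
      rw [Set.mem_iUnion] at hz
      obtain ⟨n, hn⟩ := hz
      exact step n (FV n hn)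
    have himg : Dense ((V 0).mkQ '' ((Submodule.span 𝕜 (Set.range x) ⊔ V 0 : Submodule 𝕜 X) :
        Set X)) := by
      have hsurj : Function.Surjective (V 0).mkQ := Submodule.mkQ_surjective _
      have hcont : Continuous (V 0).mkQ := (V 0).mkQL.continuous
      exact hsurj.denseRange.dense_image hcont hdense
    have himg2 : (V 0).mkQ '' ((Submodule.span 𝕜 (Set.range x) ⊔ V 0 : Submodule 𝕜 X) : Set X)
        ⊆ (Submodule.span 𝕜 (Set.range fun n => (V 0).mkQ (x n)) : Set (X ⧸ V 0)) := by
      rintro _ ⟨z, hz, rfl⟩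
      have hz2 : z ∈ (Submodule.span 𝕜 (Set.range x) ⊔ V 0 : Submodule 𝕜 X) := hz
      have hle : Submodule.span 𝕜 (Set.range x) ⊔ V 0 ≤
          (Submodule.span 𝕜 (Set.range fun n => (V 0).mkQ (x n))).comap (V 0).mkQ := by
        refine sup_le ?_ ?_
        · rw [Submodule.span_le]
          rintro _ ⟨n, rfl⟩
          exact Submodule.subset_span ⟨n, rfl⟩
        · intro w hw
          have : (V 0).mkQ w = 0 := (Submodule.Quotient.mk_eq_zero _).2 hw
          simp [Submodule.mem_comap, this]
      exact hle hz2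
    have hsep : IsSeparable (Submodule.span 𝕜 (Set.range fun n => (V 0).mkQ (x n)) :
        Set (X ⧸ V 0)) :=
      (Set.countable_range _).isSeparable.span
    have hcl2 : closure (Submodule.span 𝕜 (Set.range fun n => (V 0).mkQ (x n)) :
        Set (X ⧸ V 0)) = Set.univ :=
      (himg.mono himg2).closure_eq
    have := hsep.closure
    rw [hcl2] at this
    exact isSeparable_univ_iff.1 this
  · -- infinite dimension
    intro hfin
    have hstrict : StrictMono fun n => (V n).map (V 0).mkQ := by
      refine strictMono_nat_of_lt_succ fun n => ?_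
      refine lt_of_le_of_ne (Submodule.map_mono (Vmono (Nat.le_succ n))) ?_
      intro heq
      have hmem : (V 0).mkQ (x n) ∈ (V (n + 1)).map (V 0).mkQ :=
        Submodule.mem_map_of_mem (xV n)
      rw [← heq] at hmem
      obtain ⟨w, hw, hwx⟩ := Submodule.mem_map.1 hmem
      have hsub : w - x n ∈ V 0 := by
        have : (V 0).mkQ (w - x n) = 0 := by rw [map_sub, hwx, sub_self]
        exact (Submodule.Quotient.mk_eq_zero _).1 this
      have hsub' : w - x n ∈ V n := Vmono (Nat.zero_le n) hsub
      have : x n = w - (w - x n) := by abel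
      apply xV' n
      rw [this]
      exact Submodule.sub_mem _ hw hsub'
    exact not_strictMono_of_wellFoundedGT _ hstrict

/-- A monotone sequence without a largest term has a strictly increasing cofinal subsequence. -/
lemma exists_strictMono_subseq {α : Type*} [PartialOrder α] (G : ℕ → α) (hmono : Monotone G)
    (hnext : ∀ n, ∃ m, G n < G m) :
    ∃ φ : ℕ → ℕ, (∀ a b, a < b → G (φ a) < G (φ b)) ∧ ∀ k, k ≤ φ k := by
  choose next hnext using hnext
  let φ : ℕ → ℕ := fun k => Nat.rec 0 (fun _ m => next m) k
  have φsucc : ∀ k, φ (k + 1) = next (φ k) := fun k => rfl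
  have step : ∀ k, G (φ k) < G (φ (k + 1)) := by
    intro k
    rw [φsucc]
    exact hnext (φ k)
  have φlt : ∀ k, φ k < φ (k + 1) := by
    intro k
    by_contra h
    have h' : φ (k + 1) ≤ φ k := not_lt.1 h
    exact absurd (hmono h') (not_le_of_gt (step k))
  have φge : ∀ k, k ≤ φ k := by
    intro k
    induction k with
    | zero => exact Nat.zero_le _
    | succ k ih => exact Nat.succ_le_of_lt (lt_of_le_of_lt ih (φlt k))
  have hstrict : StrictMono fun k => G (φ k) := strictMono_nat_of_lt_succ step
  exact ⟨φ, fun a b hab => hstrict hab, φge⟩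

/-- From a separable infinite-dimensional quotient to a strictly increasing sequence of closed
subspaces with dense union. -/
lemma chain_of_quotient (M : Submodule 𝕜 X) (hM : IsClosed (M : Set X))
    (hsep : SeparableSpace (X ⧸ M)) (hinf : ¬ FiniteDimensional 𝕜 (X ⧸ M)) :
    ∃ F : ℕ → Submodule 𝕜 X, (∀ n, IsClosed (F n : Set X)) ∧ StrictMono F ∧
      Dense (⋃ n, (F n : Set X)) := by
  have : IsClosed (M : Set X) := hM
  have := hsep
  obtain ⟨u, hu⟩ := exists_dense_seq (X ⧸ M)
  set G : ℕ → Submodule 𝕜 (X ⧸ M) := fun n => Submodule.span 𝕜 (u '' Set.Iio n) with hG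
  have Gmono : Monotone G := by
    intro a b hab
    exact Submodule.span_mono (Set.image_mono (Set.Iio_subset_Iio hab))
  have Gfin : ∀ n, FiniteDimensional 𝕜 (G n) := by
    intro n
    exact FiniteDimensional.span_of_finite 𝕜 ((Set.finite_Iio n).image u)
  have Gclosed : ∀ n, IsClosed (G n : Set (X ⧸ M)) := by
    intro n
    have := Gfin n
    exact Submodule.closed_of_finiteDimensional (G n)
  have Gdense : Dense (⋃ n, (G n : Set (X ⧸ M))) := by
    refine Dense.mono ?_ hu
    rintro _ ⟨n, rfl⟩
    rw [Set.mem_iUnion]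
    exact ⟨n + 1, Submodule.subset_span ⟨n, Nat.lt_succ_self n, rfl⟩⟩
  have Gnext : ∀ n, ∃ m, G n < G m := by
    intro n
    by_contra hcon
    simp only [not_exists] at hcon
    have hall : ∀ m, G m ≤ G n := by
      intro m
      rcases le_total m n with h | h
      · exact Gmono h
      · by_contra h2
        exact hcon m (lt_of_le_of_ne (Gmono h) (fun heq => h2 (heq ▸ le_rfl)))
    have hsub : (⋃ m, (G m : Set (X ⧸ M))) ⊆ (G n : Set (X ⧸ M)) := by
      intro z hz
      rw [Set.mem_iUnion] at hz
      obtain ⟨m, hm⟩ := hz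
      exact hall m hm
    have htop : (G n : Set (X ⧸ M)) = Set.univ := by
      have h1 : Dense (G n : Set (X ⧸ M)) := Gdense.mono hsub
      have h2 := h1.closure_eq
      rwa [(Gclosed n).closure_eq] at h2
    have htop' : G n = ⊤ := SetLike.coe_injective (by rw [htop]; rfl)
    apply hinf
    have := Gfin n
    have e : (G n) ≃ₗ[𝕜] (X ⧸ M) := (LinearEquiv.ofEq _ _ htop').trans Submodule.topEquiv
    exact LinearEquiv.finiteDimensional e
  obtain ⟨φ, Gφ, φge⟩ := exists_strictMono_subseq G Gmono Gnext
  refine ⟨fun k => (G (φ k)).comap M.mkQ, ?_, ?_, ?_⟩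
  · intro k
    exact (Gclosed (φ k)).preimage M.mkQL.continuous
  · intro a b hab
    have h1 : G (φ a) < G (φ b) := Gφ a b hab
    refine lt_of_le_of_ne (Submodule.comap_mono h1.le) ?_
    intro heq
    have h2 := congrArg (Submodule.map M.mkQ) heq
    simp only [Submodule.map_comap_eq_of_surjective (Submodule.mkQ_surjective M)] at h2
    exact h1.ne h2
  · have hpre : (⋃ k, (((G (φ k)).comap M.mkQ : Submodule 𝕜 X) : Set X)) =
        M.mkQ ⁻¹' (⋃ n, (G n : Set (X ⧸ M))) := by
      ext z
      simp only [Set.mem_iUnion, Set.mem_preimage, SetLike.mem_coe, Submodule.mem_comap]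
      constructor
      · rintro ⟨k, hk⟩
        exact ⟨φ k, hk⟩
      · rintro ⟨n, hn⟩
        exact ⟨n, Gmono (φge n) hn⟩
    rw [hpre]
    exact Gdense.preimage M.isOpenMap_mkQ

/-- **Increasing-subspaces criterion for separable quotients.** A normed space `X` over `ℝ` or
`ℂ` (in particular any Banach space) has a closed subspace `M` with `X ⧸ M` separable and
infinite-dimensional if and only if there is a strictly increasing sequence of closed subspaces
of `X` whose union is dense in `X`. -/
theorem result (𝕜 : Type*) [RCLike 𝕜] (X : Type*) [NormedAddCommGroup X] [NormedSpace 𝕜 X] :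
    (∃ M : Submodule 𝕜 X, IsClosed (M : Set X) ∧ SeparableSpace (X ⧸ M) ∧
        ¬ FiniteDimensional 𝕜 (X ⧸ M)) ↔
      (∃ F : ℕ → Submodule 𝕜 X, (∀ n, IsClosed (F n : Set X)) ∧ StrictMono F ∧
        Dense (⋃ n, (F n : Set X))) := by
  constructor
  · rintro ⟨M, hM, hsep, hinf⟩
    exact chain_of_quotient M hM hsep hinf
  · rintro ⟨F, hcl, hF, hd⟩
    exact quotient_of_chain F hcl hF hd

end Vale.Agent.Results.P129.IncreasingSubspaces
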